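import Vale.Agent.P126.Main

namespace Vale.Agent.Results.P126.Disproof
open Vale.Agent.P126 Pointwise

theorem result :
    (¬ ∃ a b : ℝ, 1 ≤ a ∧ 1 ≤ b ∧ ∀ n : ℕ, 1 ≤ n →
      ∀ K L : Set (EuclideanSpace ℝ (Fin n)), SymBody K → SymBody L →
        1 / b * Real.log (cov (polar L) (a • polar K)) ≤ Real.log (cov K L) ∧
        Real.log (cov K L) ≤ b * Real.log (cov (polar L) (a⁻¹ • polar K))) ∧
    ∀ a b : ℝ, 0 < a → 0 < b → ∃ n : ℕ, 1 ≤ n ∧
      ∃ K L : Set (EuclideanSpace ℝ (Fin n)), SymBody K ∧ SymBody L ∧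
        b * Real.log (cov K L) < Real.log (cov (polar L) (a • polar K)) := by
  refine ⟨fun ⟨a, b, ha, hb, h⟩ => ?_, fun a b ha hb => counter ha hb⟩
  obtain ⟨n, hn, K, L, hK, hL, h1⟩ := counter (a := a) (b := b) (by linarith) (by linarith)
  have h2 := (h n hn K L hK hL).1
  rw [one_div_mul_eq_div, div_le_iff₀' (by linarith)] at h2
  linarith

end Vale.Agent.Results.P126.Disproof
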